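import Mathlib
import Crest.Prelude.Def_ProductShift

/-! Concrete facts on the weighted shift over a rotation of the infinite torus. -/

set_option autoImplicit false

noncomputable section

namespace Crest.Agent.H9.BM

open Crest.AnalysisR.ProductShift MeasureTheory Set Filter
open scoped ENNReal

theorem mp_fract (a : ℝ) :
    MeasurePreserving (fun t : ℝ => Int.fract (t + a)) unitLebesgue unitLebesgue := by
  have hm : Measurable fun t : ℝ => Int.fract (t + a) := (measurable_id.add_const a).fract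
  refine ⟨hm, ?_⟩
  ext s hs
  rw [Measure.map_apply hm hs, unitLebesgue, Measure.restrict_apply (hm hs),
    Measure.restrict_apply hs]
  have h1 := (isAddFundamentalDomain_Ioc one_pos a).measure_set_eq
    (isAddFundamentalDomain_Ioc one_pos 0) (A := Int.fract ⁻¹' s) (measurable_fract hs) (fun g => by
      obtain ⟨_, n, rfl⟩ := g
      ext t
      simp [AddSubgroup.vadd_def])
  have e1 : (fun t : ℝ => Int.fract (t + a)) ⁻¹' s ∩ Ico 0 1 =
      (fun t => t + a) ⁻¹' (Int.fract ⁻¹' s ∩ Ico a (a + 1)) := by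
    ext t
    simp only [mem_inter_iff, mem_preimage, mem_Ico]
    constructor <;> rintro ⟨h, h', h''⟩ <;> exact ⟨h, by linarith, by linarith⟩
  have e2 : s ∩ Ico 0 1 = Int.fract ⁻¹' s ∩ Ico (0 : ℝ) (0 + 1) := by
    ext t
    simp only [mem_inter_iff, mem_preimage, zero_add]
    constructor <;> rintro ⟨h, h'⟩ <;> have := Int.fract_eq_self.2 h'
    · exact ⟨by rwa [this], h'⟩
    · exact ⟨by rwa [this] at h, h'⟩
  have e3 : ∀ b : ℝ, volume (Int.fract ⁻¹' s ∩ Ico b (b + 1)) =
      volume (Int.fract ⁻¹' s ∩ Ioc b (b + 1)) := fun b =>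
    measure_congr (ae_eq_set_inter (ae_eq_refl _) Ico_ae_eq_Ioc)
  rw [e1, e2, measure_preimage_add_right, e3, e3, h1]

variable {θ c : ℕ → ℝ}

theorem mp_orbit (θ : ℕ → ℝ) (k : ℤ) :
    MeasurePreserving (orbitPoint θ k) cubeMeasure cubeMeasure := by
  refine ⟨measurable_pi_lambda _ fun i => ((measurable_pi_apply i).add_const _).fract, ?_⟩
  have := Measure.infinitePi_map_pi (fun _ : ℕ => unitLebesgue)
    (f := fun i t => Int.fract (t + (k : ℝ) * θ i)) fun i => (mp_fract _).measurable
  simp only [(mp_fract _).map_eq] at this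
  exact this

theorem orbit_orbit (θ : ℕ → ℝ) (k j : ℤ) (x : ℕ → ℝ) :
    orbitPoint θ k (orbitPoint θ j x) = orbitPoint θ (k + j) x := by
  funext i
  simp only [orbitPoint]
  rw [Int.fract_eq_fract]
  exact ⟨-⌊x i + j * θ i⌋, by rw [Int.fract]; push_cast; ring⟩

theorem mp_shift (k : ℤ) :
    MeasurePreserving (fun p : (ℕ → ℝ) × ℤ => (p.1, p.2 - k)) pairMeasure pairMeasure :=
  (MeasurePreserving.id cubeMeasure).prod (measurePreserving_sub_right Measure.count k)

/-- monomial operators -/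
def IsMono (θ : ℕ → ℝ) (h : (ℕ → ℝ) → ℂ) (k : ℤ) (A : pairSpace →L[ℂ] pairSpace) : Prop :=
  ∀ g : pairSpace, (A g : (ℕ → ℝ) × ℤ → ℂ) =ᵐ[pairMeasure]
    fun p => h (orbitPoint θ p.2 p.1) * (g : (ℕ → ℝ) × ℤ → ℂ) (p.1, p.2 - k)

variable {h h' : (ℕ → ℝ) → ℂ} {k k' : ℤ} {A B : pairSpace →L[ℂ] pairSpace}

theorem IsMono.congr (hA : IsMono θ h k A) (e : ∀ j x, h (orbitPoint θ j x) = h' (orbitPoint θ j x)) :
    IsMono θ h' k A := fun g => by
  filter_upwards [hA g] with p hp
  rw [hp, e]

theorem mono_one : IsMono θ (fun _ => 1) 0 1 := fun g => by simp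

theorem IsMono.sub (hA : IsMono θ h k A) (hB : IsMono θ h' k B) :
    IsMono θ (fun x => h x - h' x) k (A - B) := fun g => by
  filter_upwards [hA g, hB g, Lp.coeFn_sub (A g) (B g)] with p h1 h2 h3
  rw [ContinuousLinearMap.sub_apply, h3, Pi.sub_apply, h1, h2, sub_mul]

theorem IsMono.mul (hA : IsMono θ h k A) (hB : IsMono θ h' k' B) :
    IsMono θ (fun x => h x * h' (orbitPoint θ (-k) x)) (k + k') (A * B) := fun g => by
  filter_upwards [hA (B g), (mp_shift k).quasiMeasurePreserving.ae (hB g)] with p h1 h2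
  rw [ContinuousLinearMap.mul_apply, h1, h2, orbit_orbit, mul_assoc, sub_sub, neg_add_eq_sub]

theorem IsMono.norm_le (hA : IsMono θ h k A) {C : ℝ} (hC : 0 ≤ C)
    (hh : ∀ j x, ‖h (orbitPoint θ j x)‖ ≤ C) : ‖A‖ ≤ C := by
  refine A.opNorm_le_bound hC fun g => ?_
  rw [← Lp.norm_compMeasurePreserving g (mp_shift k)]
  refine Lp.norm_le_mul_norm_of_ae_le_mul ?_
  filter_upwards [hA g, Lp.coeFn_compMeasurePreserving g (mp_shift k)] with p h1 h2
  rw [h1, h2, norm_mul]
  exact mul_le_mul_of_nonneg_right (hh _ _) (norm_nonneg _)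

theorem IsMono.adj (hA : IsMono θ h k A) (hm : Measurable h) (hh : ∀ x, ‖h x‖ ≤ 1) :
    IsMono θ (fun x => (starRingEnd ℂ) (h (orbitPoint θ k x))) (-k) (star A) := fun g => by
  have hm2 : Measurable fun p : (ℕ → ℝ) × ℤ => orbitPoint θ p.2 p.1 :=
    measurable_from_prod_countable_left fun j => (mp_orbit θ j).measurable
  have hL : MemLp (fun p : (ℕ → ℝ) × ℤ => (starRingEnd ℂ) (h (orbitPoint θ k
      (orbitPoint θ p.2 p.1))) * (g : (ℕ → ℝ) × ℤ → ℂ) (p.1, p.2 - -k)) 2 pairMeasure := by
    have h1 := (Lp.memLp g).comp_measurePreserving (mp_shift (-k))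
    refine h1.of_le (AEStronglyMeasurable.mul (Measurable.aestronglyMeasurable ?_) h1.1)
      (Eventually.of_forall fun p => ?_)
    · exact Complex.continuous_conj.measurable.comp (hm.comp ((mp_orbit θ k).measurable.comp hm2))
    · rw [norm_mul, Complex.norm_conj]
      exact mul_le_of_le_one_left (norm_nonneg _) (hh _)
  have e : star A g = hL.toLp _ := by
    refine ext_inner_left ℂ fun u => ?_
    rw [ContinuousLinearMap.star_eq_adjoint, ContinuousLinearMap.adjoint_inner_right, L2.inner_def,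
      L2.inner_def]
    let E : (ℕ → ℝ) × ℤ ≃ᵐ (ℕ → ℝ) × ℤ :=
      (MeasurableEquiv.refl _).prodCongr (MeasurableEquiv.subRight k)
    have hE : MeasurePreserving E pairMeasure pairMeasure := mp_shift k
    rw [← hE.integral_comp' (g := fun p => inner ℂ (u p) (hL.toLp _ p))]
    refine integral_congr_ae ?_
    filter_upwards [hA u, (mp_shift k).quasiMeasurePreserving.ae hL.coeFn_toLp] with p h1 h2
    change _ = inner ℂ (u (p.1, p.2 - k)) (hL.toLp _ (p.1, p.2 - k))
    rw [h1, h2]
    simp only [orbit_orbit, RCLike.inner_apply, map_mul, add_sub_cancel, sub_neg_eq_add,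
      sub_add_cancel]
    ring
  rw [e]
  exact hL.coeFn_toLp

theorem IsMono.tau (hA : IsMono θ h k A) : inner ℂ vacuumVector (A vacuumVector) =
    if k = 0 then ∫ x, h (orbitPoint θ 0 x) ∂cubeMeasure else 0 := by
  have h0 : (vacuumVector : (ℕ → ℝ) × ℤ → ℂ) =ᵐ[pairMeasure]
      (univ ×ˢ {(0 : ℤ)}).indicator fun _ => 1 := indicatorConstLp_coeFn
  have h1 : (A vacuumVector : (ℕ → ℝ) × ℤ → ℂ) =ᵐ[pairMeasure]
      fun p => h (orbitPoint θ p.2 p.1) * (if p.2 - k = 0 then 1 else 0) := by
    filter_upwards [hA vacuumVector, (mp_shift k).quasiMeasurePreserving.ae h0] with p h1 h2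
    rw [h1, h2]
    simp [indicator_apply]
  conv_lhs => arg 2; rw [vacuumVector]
  rw [L2.inner_indicatorConstLp_one, integral_congr_ae (ae_restrict_of_ae h1), pairMeasure,
    ← Measure.prod_restrict, Measure.restrict_univ, Measure.restrict_singleton,
    Measure.count_singleton, one_smul, Measure.prod_dirac,
    (measurableEmbedding_prod_mk_right (0 : ℤ)).integral_map]
  by_cases hk : k = 0 <;> simp [hk]

theorem norm_vac : ‖vacuumVector‖ = 1 := by
  have := (mono_one (θ := fun _ => 0)).tau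
  simp only [ContinuousLinearMap.one_apply, if_true, integral_const, probReal_univ, one_smul,
    inner_self_eq_norm_sq_to_K] at this
  have h2 : ‖vacuumVector‖ ^ 2 = 1 := by
    have := congrArg norm this
    simpa using this
  nlinarith [norm_nonneg vacuumVector]

theorem int_orbit (F : (ℕ → ℝ) → ℂ) (hF : Measurable F) (j : ℤ) :
    ∫ x, F (orbitPoint θ j x) ∂cubeMeasure = ∫ x, F x ∂cubeMeasure := by
  rw [← integral_map (mp_orbit θ j).measurable.aemeasurable hF.aestronglyMeasurable,
    (mp_orbit θ j).map_eq]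

theorem IsMono.trace (hA : IsMono θ h k A) (hB : IsMono θ h' k' B) (hm : Measurable h)
    (hm' : Measurable h') : inner ℂ vacuumVector ((A * B) vacuumVector) =
      inner ℂ vacuumVector ((B * A) vacuumVector) := by
  rw [(hA.mul hB).tau, (hB.mul hA).tau, add_comm k' k]
  split_ifs with e
  · obtain rfl : k' = -k := by omega
    have := int_orbit (θ := θ) (fun x => h (orbitPoint θ 0 x) * h' (orbitPoint θ (-k) x))
      ((hm.comp (mp_orbit θ 0).measurable).mul (hm'.comp (mp_orbit θ _).measurable)) k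
    simp only [orbit_orbit, add_zero, zero_add, neg_add_cancel, neg_neg] at this ⊢
    rw [← this]
    simp only [mul_comm]
  · rfl

theorem meas_drop (θ c : ℕ → ℝ) : Measurable (dropCost θ c) :=
  Measurable.tsum fun i => (measurable_const.mul ((measurable_of_countable
    (fun n : ℤ => (n : ℝ))).comp ((measurable_pi_apply i).add_const _).floor)).ennreal_ofReal

theorem meas_weight (θ c : ℕ → ℝ) : Measurable (weight θ c) :=
  Measurable.ite (meas_drop θ c (measurableSet_singleton ⊤)) measurable_const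
    (meas_drop θ c).ennreal_toReal.neg.exp

theorem weight_nonneg (x : ℕ → ℝ) : 0 ≤ weight θ c x := by
  unfold weight; split_ifs; exacts [le_rfl, (Real.exp_pos _).le]

theorem weight_le_one (x : ℕ → ℝ) : weight θ c x ≤ 1 := by
  unfold weight; split_ifs
  exacts [zero_le_one, Real.exp_le_one_iff.2 (neg_nonpos.2 ENNReal.toReal_nonneg)]

theorem weight_le (m : ℕ) (x : ℕ → ℝ) :
    weight θ c x ≤ Real.exp (-∑ i ∈ Finset.range m, c i * (⌊x i + θ i⌋ : ℝ)) := by
  unfold weight; split_ifs with ht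
  · exact (Real.exp_pos _).le
  · refine Real.exp_le_exp.2 (neg_le_neg ?_)
    refine (ENNReal.ofReal_le_iff_le_toReal ht).1 ?_
    refine le_trans ?_ (ENNReal.sum_le_tsum (Finset.range m))
    induction m with
    | zero => simp
    | succ m ih =>
      rw [Finset.sum_range_succ, Finset.sum_range_succ]
      exact ENNReal.ofReal_add_le.trans (add_le_add ih le_rfl)

variable {T : pairSpace →L[ℂ] pairSpace}

theorem mono_T (hT : IsWeightedShift θ c T) :
    IsMono θ (fun x => weight θ c (orbitPoint θ (-1) x)) 1 T := fun g => by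
  filter_upwards [hT g] with p hp
  rw [hp, orbit_orbit, neg_add_eq_sub]

theorem meas_T : Measurable fun x => (weight θ c (orbitPoint θ (-1) x) : ℂ) :=
  Complex.measurable_ofReal.comp ((meas_weight θ c).comp (mp_orbit θ _).measurable)

theorem mono_star_T (hT : IsWeightedShift θ c T) :
    IsMono θ (fun x => weight θ c x) (-1) (star T) :=
  ((mono_T hT).adj meas_T fun x => by
    rw [Complex.norm_real, Real.norm_of_nonneg (weight_nonneg _)]; exact weight_le_one _).congr
    fun j x => by simp [orbit_orbit]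

theorem trace_words (hT : IsWeightedShift θ c T) :
    ∀ a ∈ Submonoid.closure {T, star T}, ∀ b ∈ Submonoid.closure {T, star T},
      inner ℂ vacuumVector ((a * b) vacuumVector) = inner ℂ vacuumVector ((b * a) vacuumVector) := by
  have key : ∀ a ∈ Submonoid.closure {T, star T}, ∃ h k, Measurable h ∧ IsMono θ h k a := by
    intro a ha
    induction ha using Submonoid.closure_induction with
    | mem x hx =>
      rcases hx with rfl | rfl
      · exact ⟨_, _, meas_T, mono_T hT⟩
      · exact ⟨_, _, Complex.measurable_ofReal.comp (meas_weight θ c), mono_star_T hT⟩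
    | one => exact ⟨_, _, measurable_const, mono_one⟩
    | mul x y _ _ hx hy =>
      obtain ⟨h, k, m, hx⟩ := hx
      obtain ⟨h', k', m', hy⟩ := hy
      exact ⟨_, _, m.mul (m'.comp (mp_orbit θ _).measurable), hx.mul hy⟩
  intro a ha b hb
  obtain ⟨h, k, m, hx⟩ := key a ha
  obtain ⟨h', k', m', hy⟩ := key b hb
  exact hx.trace hy m m'

theorem mono_pow (hT : IsWeightedShift θ c T) (n : ℕ) :
    IsMono θ (fun x => ((∏ i ∈ Finset.range n, weight θ c (orbitPoint θ (-1 - i) x) : ℝ) : ℂ)) n
      (T ^ n) := by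
  induction n with
  | zero => simpa using mono_one
  | succ n ih =>
    rw [pow_succ, Nat.cast_succ]
    refine (ih.mul (mono_T hT)).congr fun j x => ?_
    rw [Finset.prod_range_succ, Complex.ofReal_mul, orbit_orbit θ (-1), sub_eq_add_neg]

theorem tau_pow (hT : IsWeightedShift θ c T) (n : ℕ) :
    inner ℂ vacuumVector ((T ^ (n + 1)) vacuumVector) = 0 := by
  rw [(mono_pow hT (n + 1)).tau, if_neg (by omega)]

theorem moments (hT : IsWeightedShift θ c T) (n : ℕ) :
    inner ℂ vacuumVector (((star T * T) ^ n) vacuumVector) =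
      ((∫ x, (weight θ c x ^ 2) ^ n ∂cubeMeasure : ℝ) : ℂ) := by
  have h1 : IsMono θ (fun x => ((weight θ c x ^ 2 : ℝ) : ℂ)) 0 (star T * T) := by
    refine (show IsMono θ _ 0 _ from (mono_star_T hT).mul (mono_T hT)).congr fun j x => ?_
    simp [orbit_orbit, sq]
  have h2 : IsMono θ (fun x => (((weight θ c x ^ 2) ^ n : ℝ) : ℂ)) 0 ((star T * T) ^ n) := by
    induction n with
    | zero => simpa using mono_one
    | succ n ih =>
      rw [pow_succ]
      refine (show IsMono θ _ 0 _ from ih.mul h1).congr fun j x => ?_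
      rw [orbit_orbit, neg_zero, zero_add, pow_succ _ n, Complex.ofReal_mul]
  rw [h2.tau, if_pos rfl, int_orbit (fun x => (((weight θ c x ^ 2) ^ n : ℝ) : ℂ))
    (Complex.measurable_ofReal.comp (((meas_weight θ c).pow_const 2).pow_const n)),
    integral_complex_ofReal]

theorem norm_T (hT : IsWeightedShift θ c T) : ‖T‖ ≤ 1 :=
  (mono_T hT).norm_le zero_le_one fun j x => by
    rw [Complex.norm_real, Real.norm_of_nonneg (weight_nonneg _)]; exact weight_le_one _

theorem floor_sum (y a : ℝ) (n : ℕ) :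
    n * a - 1 ≤ ∑ i ∈ Finset.range n, (⌊Int.fract (y + ((-1 - i : ℤ) : ℝ) * a) + a⌋ : ℝ) := by
  have : ∑ i ∈ Finset.range n, (⌊Int.fract (y + ((-1 - i : ℤ) : ℝ) * a) + a⌋ : ℝ) =
      ⌊y⌋ - ⌊y - n * a⌋ := by
    induction n with
    | zero => simp
    | succ n ih =>
      rw [Finset.sum_range_succ, ih, Int.fract, sub_add_eq_add_sub _ _ a, Int.floor_sub_intCast,
        show y + ((-1 - n : ℤ) : ℝ) * a + a = y - n * a by push_cast; ring,
        show y + ((-1 - n : ℤ) : ℝ) * a = y - (n + 1 : ℕ) * a by push_cast; ring]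
      push_cast; ring
  rw [this]
  linarith [Int.floor_le (y - n * a), Int.lt_floor_add_one y]

theorem norm_pow_le (hc : ∀ i, 0 ≤ c i) (hT : IsWeightedShift θ c T) (n m : ℕ) :
    ‖T ^ n‖ ≤ Real.exp (-∑ i ∈ Finset.range m, c i * (n * θ i - 1)) := by
  refine (mono_pow hT n).norm_le (Real.exp_pos _).le fun j x => ?_
  rw [Complex.norm_real, Real.norm_of_nonneg (Finset.prod_nonneg fun _ _ => weight_nonneg _)]
  refine (Finset.prod_le_prod (fun _ _ => weight_nonneg _) fun _ _ => weight_le m _).trans ?_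
  rw [← Real.exp_sum, Finset.sum_neg_distrib, Finset.sum_comm]
  refine Real.exp_le_exp.2 (neg_le_neg (Finset.sum_le_sum fun i _ => ?_))
  rw [← Finset.mul_sum]
  exact mul_le_mul_of_nonneg_left (floor_sum _ _ n) (hc i)

theorem not_summable (hθ : ∀ i, 0 < θ i ∧ θ i < 1) (hc : ∀ i, 0 ≤ c i)
    (hlog : ∫⁻ x, ENNReal.ofReal (- Real.log (weight θ c x)) ∂cubeMeasure = ⊤) :
    ¬Summable fun i => c i * θ i := by
  intro hs
  have h1 : ∀ x, ENNReal.ofReal (- Real.log (weight θ c x)) ≤ dropCost θ c x := fun x => by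
    unfold weight; split_ifs with ht
    · rw [ht]; exact le_top
    · rw [Real.log_exp, neg_neg, ENNReal.ofReal_toReal ht]
  have hm : ∀ i, Measurable fun t : ℝ => ENNReal.ofReal (c i * (⌊t + θ i⌋ : ℝ)) := fun i =>
    (measurable_const.mul ((measurable_of_countable
      (fun n : ℤ => (n : ℝ))).comp (measurable_id.add_const _).floor)).ennreal_ofReal
  have h2 : ∀ i, ∫⁻ x, ENNReal.ofReal (c i * (⌊x i + θ i⌋ : ℝ)) ∂cubeMeasure ≤
      ENNReal.ofReal (c i * θ i) := fun i => by
    rw [cubeMeasure, (measurePreserving_eval_infinitePi (fun _ : ℕ => unitLebesgue) i).lintegral_comp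
      (hm i), unitLebesgue]
    calc _ ≤ ∫⁻ t in Ico (0 : ℝ) 1, (Ico (1 - θ i) 1).indicator (fun _ => ENNReal.ofReal (c i)) t := by
          refine setLIntegral_mono' measurableSet_Ico fun t ht => ?_
          by_cases h : 1 - θ i ≤ t
          · rw [indicator_of_mem (show t ∈ Ico _ _ from ⟨h, ht.2⟩),
              (Int.floor_eq_iff (z := 1)).2 ⟨by push_cast; linarith, by
                push_cast; linarith [ht.2, (hθ i).2]⟩]
            simp
          · rw [(Int.floor_eq_iff (z := 0)).2 ⟨by push_cast; linarith [ht.1, (hθ i).1], by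
                push_cast; linarith⟩]
            simp
      _ ≤ _ := by
          refine (setLIntegral_le_lintegral _ _).trans (le_of_eq ?_)
          rw [lintegral_indicator_const measurableSet_Ico, Real.volume_Ico, sub_sub_cancel,
            ENNReal.ofReal_mul (hc i)]
  have h3 := (lintegral_mono (μ := cubeMeasure) h1).trans (le_of_eq (lintegral_tsum fun i =>
    ((hm i).comp (measurable_pi_apply i)).aemeasurable))
  have h4 := h3.trans (ENNReal.tsum_le_tsum h2)
  rw [hlog, ← ENNReal.ofReal_tsum_of_nonneg (fun i => mul_nonneg (hc i) (hθ i).1.le) hs] at h4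
  exact ENNReal.ofReal_ne_top (top_le_iff.1 h4)

theorem quasinil (hθ : ∀ i, 0 < θ i ∧ θ i < 1) (hc : ∀ i, 0 ≤ c i)
    (hlog : ∫⁻ x, ENNReal.ofReal (- Real.log (weight θ c x)) ∂cubeMeasure = ⊤)
    (hT : IsWeightedShift θ c T) (r : ℝ) (hr : 0 < r) :
    ∃ C : ℝ, ∀ n : ℕ, ‖T ^ n‖ ≤ C * r ^ n := by
  have h1 := (not_summable_iff_tendsto_nat_atTop_of_nonneg
    fun i => mul_nonneg (hc i) (hθ i).1.le).1 (not_summable hθ hc hlog)
  obtain ⟨m, hm⟩ := (h1.eventually_ge_atTop (-Real.log r)).exists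
  refine ⟨Real.exp (∑ i ∈ Finset.range m, c i), fun n => (norm_pow_le hc hT _ m).trans ?_⟩
  rw [← Real.exp_log hr, ← Real.exp_nat_mul, ← Real.exp_add]
  refine Real.exp_le_exp.2 ?_
  have h3 : ∑ i ∈ Finset.range m, c i * (n * θ i - 1) =
      n * ∑ i ∈ Finset.range m, c i * θ i - ∑ i ∈ Finset.range m, c i := by
    rw [Finset.mul_sum, ← Finset.sum_sub_distrib]
    exact Finset.sum_congr rfl fun i _ => by ring
  rw [h3]
  nlinarith [mul_le_mul_of_nonneg_left hm (Nat.cast_nonneg (α := ℝ) n)]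

end Crest.Agent.H9.BM
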